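import Vale.Agent.P193.Final

/-- The Boone-Higman conjecture: a group generated by finitely many elements `gen i` whose word
problem (for words in the generators and their inverses) is decidable embeds in a finitely
presented simple group. -/
theorem Vale.Agent.Results.P193.BooneHigman.result {G : Type*} [Group G] {n : ℕ}
    (gen : Fin n → G) (hgen : Subgroup.closure (Set.range gen) = ⊤)
    (hdec : ComputablePred fun w : List (Fin n × Bool) =>
      FreeGroup.lift gen (FreeGroup.mk w) = 1) :
    ∃ (S : Type) (_ : Group S), IsSimpleGroup S ∧ Group.IsFinitelyPresented S ∧
      ∃ f : G →* S, Function.Injective f :=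
  Vale.Agent.P193.boone_higman gen hgen hdec
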